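import Vale.Agent.Lib.P154.Chain.Check

set_option linter.all false

namespace Vale.Agent.Lib.P154.Chain.D6

/-- the global parameters -/
noncomputable def g : GP := ⟨6, 4083, 10000, 46, 30, 64, 94, 84⟩

/-- the operations of the power -/
noncomputable def ops : Ops := (Ops.sqm (Ops.sq Ops.nil))

/-- a lattice -/
noncomputable def l0 : LP := ⟨1031, 1000, 48, 288, 211, (nat_lit 13995996019069643556828489217284904089332560851102990980082146033905586872211009595398679862900691860615285284786064566207539135066959701624811836000522765712533027675002071649508500953483646624529682039292247966417049517608342517500973226506383536884073095773385457352490478330822572454024995768429155993447731679243241978211515681468012069771794665413445845434918831063667074388460046885772394742906373113716000848531666366942218803993432635554939627430003966826395137245658541107802539740506333930668795461956239405564353691031625203013877100846640480953362556709891612439013226156477550875414600022907178371079406244762888304663849033824890253139170351790727010361227408347743262371467645628871671541131888374933216313471328284964047129220199896660406167896112235597667262901794944544546507988442796042256607660436462517188973112089969102094135305564459565838265540234075469897063087065154392026414829277373612461867035266470133780196227064520933504636953313749406808509621240680278245879555185100937785648378964788433454341628639433168867823155594354408769199756623932096887419846584869756165535432303914574595213315826978450602208990493228052597612235828259315492955310032208372472521034246931200813896093540109057087341101011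88436690970807103964814227313444029774878079516071770672777475017052167769243513178032032466716033872276083344380434026904787252552648019711973770593602088413115654642351549418527331777097975617991847987516397954625841782577602247814678008261799361032294622004855656361316622745072894386270178822396094647865033961055367990584077412801438458205172633711568338451488801954385041691025644736997394286420239169445025867937286020596669229378902623999915311282174969233230621118100496956636648850926670374337153371811493428600744284416566169017061306849484670720968975564088703226449691717679666646133634248499417745880484695966113946899099557948048453006846963001007553373033809419573367792487737499454077905073896580017126088647108966518521505556652295895129524144605101759112383588283219661732440297609337609931659148351659683436888585015708794486171095097081288122349005893722660963594432266614490898014530941598402690835826214769628155533336542363771129361353024940973988564099359939405568476679973985379794398317890239054504508767243090477199644766098584770940987988281170333215240625586176333271030900070538132884465229463946442642420345233842135414436940842130029232379776977432297765139763804534721868961851630512445716685309312116340128026101438936684708681112262710230533601744435679946056032861081598131479143852370137011980660132887064078747640717065514614802187029603859176252416069073520580246546995978981981534866737446471438136968763432251556830099008223228496168558510766123280319310140845813348577083045461746884804400998557434301190064242249161341064213401613959064450947472668367745629196780603354970648761499966708978343979822469944549894431659442545750937878949127932360033092321039927907097372421381971521433510744904667985778034937247837561954699865397513836905651081898615171590280580420725935690552866504704)⟩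

/-- the parameters of the class at the hand-off -/
noncomputable def hp : HP := ⟨267, 10000, 7, 1, 11, 5, 3, 2, 64⟩

set_option maxRecDepth 100000 in
theorem ops_ok : Ops.expo ops 1 = g.d := by
  decide +kernel

end Vale.Agent.Lib.P154.Chain.D6
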