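import Vale.Agent.Lib.P154.Chain.D6.C2

set_option linter.all false

namespace Vale.Agent.Lib.P154.Chain.D6.S2

set_option maxRecDepth 10000000 in
theorem run_ok0 : runG g l0 (vPacked vl) ops Tp Tx Te Tz 22 cp0 = rc0 := by
  decide +kernel

end Vale.Agent.Lib.P154.Chain.D6.S2
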